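import Vale.Agent.P243.Body

open MeasureTheory Set
open scoped ENNReal

namespace Vale.Agent.P243

def symRegion (α β l r : ℝ) : Set (ℝ × ℝ) :=
  regionBetween (fun ζ => -(α + β * ζ)) (fun ζ => α + β * ζ) (Icc l r)

theorem symRegion_measurable (α β l r : ℝ) : MeasurableSet (symRegion α β l r) := by
  apply measurableSet_regionBetween _ _ measurableSet_Icc
  · fun_prop
  · fun_prop

theorem mem_symRegion (α β l r : ℝ) (w : ℝ × ℝ) :
    w ∈ symRegion α β l r ↔ (l ≤ w.1 ∧ w.1 ≤ r) ∧ (-(α + β * w.1) < w.2 ∧ w.2 < α + β * w.1) := by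
  simp [symRegion, regionBetween]

theorem symRegion_volume (α β l r : ℝ) (hlr : l ≤ r) (hpos : ∀ ζ ∈ Icc l r, 0 ≤ α + β * ζ) :
    volume (symRegion α β l r) = ENNReal.ofReal (2 * α * (r - l) + β * (r ^ 2 - l ^ 2)) := by
  rw [symRegion, Measure.volume_eq_prod, volume_regionBetween_eq_integral]
  · congr 1
    rw [integral_Icc_eq_integral_Ioc, ← intervalIntegral.integral_of_le hlr]
    simp only [Pi.sub_apply]
    have : ∀ ζ : ℝ, (α + β * ζ) - -(α + β * ζ) = 2 * α + (2 * β) * ζ := by intro ζ; ring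
    simp_rw [this]
    rw [intervalIntegral.integral_add (Continuous.intervalIntegrable (by fun_prop) _ _)
        (Continuous.intervalIntegrable (by fun_prop) _ _),
      intervalIntegral.integral_const, intervalIntegral.integral_const_mul, integral_id]
    simp only [smul_eq_mul]
    ring
  · apply Continuous.integrableOn_Icc; fun_prop
  · apply Continuous.integrableOn_Icc; fun_prop
  · exact measurableSet_Icc
  · intro ζ hζ
    have := hpos ζ hζ
    linarith

def ZZ (lo hi : ℝ) : Set ℝ :=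
  ⋃ m ∈ Finset.Icc (-101 : ℤ) 100, Icc (((m : ℝ) + lo) / 2000) (((m : ℝ) + hi) / 2000)

theorem ZZ_measurable (lo hi : ℝ) : MeasurableSet (ZZ lo hi) := by
  apply Finset.measurableSet_biUnion
  intro m _
  exact measurableSet_Icc

theorem ZZ_volume (lo hi : ℝ) :
    volume (ZZ lo hi) ≤ ENNReal.ofReal (202 * ((hi - lo) / 2000)) := by
  calc volume (ZZ lo hi)
      ≤ ∑ m ∈ Finset.Icc (-101 : ℤ) 100,
          volume (Icc (((m : ℝ) + lo) / 2000) (((m : ℝ) + hi) / 2000)) :=
        measure_biUnion_finset_le _ _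
    _ = ∑ _m ∈ Finset.Icc (-101 : ℤ) 100, ENNReal.ofReal ((hi - lo) / 2000) := by
        apply Finset.sum_congr rfl
        intro m _
        rw [Real.volume_Icc]
        congr 1
        ring
    _ = ENNReal.ofReal (202 * ((hi - lo) / 2000)) := by
        rw [Finset.sum_const, Int.card_Icc]
        rw [ENNReal.ofReal_mul (by norm_num)]
        simp

theorem mem_ZZ (lo hi ζ : ℝ) (m : ℤ) (hm1 : -101 ≤ m) (hm2 : m ≤ 100)
    (h1 : lo ≤ 2000 * ζ - m) (h2 : 2000 * ζ - m ≤ hi) : ζ ∈ ZZ lo hi := by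
  simp only [ZZ, mem_iUnion]
  refine ⟨m, Finset.mem_Icc.2 ⟨hm1, hm2⟩, ?_, ?_⟩
  · rw [div_le_iff₀ (by norm_num)]; linarith
  · rw [le_div_iff₀ (by norm_num)]; linarith

def sgn (sg : Bool) : ℝ := if sg then 1 else -1

def strip (Δ : ℝ) (sg : Bool) (j : ℕ) : Set ℝ :=
  if sg then Icc ((j : ℝ) * Δ) (((j : ℝ) + 1) * Δ) else Icc (-(((j : ℝ) + 1) * Δ)) (-((j : ℝ) * Δ))

noncomputable def mid (Δ : ℝ) (sg : Bool) (j : ℕ) : ℝ := sgn sg * (((j : ℝ) + 1 / 2) * Δ)

theorem strip_measurable (Δ : ℝ) (sg : Bool) (j : ℕ) : MeasurableSet (strip Δ sg j) := by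
  unfold strip
  split_ifs <;> exact measurableSet_Icc

theorem strip_volume (Δ : ℝ) (sg : Bool) (j : ℕ) :
    volume (strip Δ sg j) = ENNReal.ofReal Δ := by
  unfold strip
  split_ifs <;> rw [Real.volume_Icc] <;> congr 1 <;> ring

theorem rod_volume (lo hi Δ : ℝ) (sg : Bool) (j : ℕ) :
    volume (ZZ lo hi ×ˢ strip Δ sg j) ≤ ENNReal.ofReal (202 * ((hi - lo) / 2000) * Δ) := by
  rw [Measure.volume_eq_prod, Measure.prod_prod, strip_volume]
  by_cases h : 0 ≤ 202 * ((hi - lo) / 2000)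
  · rw [ENNReal.ofReal_mul h]
    gcongr
    exact ZZ_volume lo hi
  · have h0 : volume (ZZ lo hi) = 0 := by
      have := ZZ_volume lo hi
      rw [ENNReal.ofReal_of_nonpos (by linarith)] at this
      exact le_antisymm this zero_le
    rw [h0]
    simp

theorem rect_volume (c : ℝ) (hc : 0 ≤ c) :
    volume (Ioo (-c) c ×ˢ Ioo (-2 : ℝ) 2) = ENNReal.ofReal (8 * c) := by
  rw [Measure.volume_eq_prod, Measure.prod_prod, Real.volume_Ioo, Real.volume_Ioo,
    ← ENNReal.ofReal_mul (by linarith)]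
  congr 1
  ring

end Vale.Agent.P243
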