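import Vale.Agent.P243.Frame

open MeasureTheory Set
open scoped ENNReal

namespace Vale.Agent.P243

def Kset : Set E3 := {x | |x 0| ≤ 1 + x 2 ∧ |x 1| ≤ 1 - x 2}

theorem mem_Kset (x : E3) : x ∈ Kset ↔ |x 0| ≤ 1 + x 2 ∧ |x 1| ≤ 1 - x 2 := Iff.rfl

theorem Kset_convex : Convex ℝ Kset := by
  intro x hx y hy a b ha hb hab
  rw [mem_Kset] at *
  obtain ⟨hx1, hx2⟩ := hx
  obtain ⟨hy1, hy2⟩ := hy
  rw [abs_le] at hx1 hx2 hy1 hy2
  simp only [PiLp.add_apply, PiLp.smul_apply, smul_eq_mul]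
  have hb' : b = 1 - a := by linarith
  subst hb'
  rw [abs_le, abs_le]
  refine ⟨⟨?_, ?_⟩, ⟨?_, ?_⟩⟩ <;> nlinarith [hx1.1, hx1.2, hx2.1, hx2.2, hy1.1, hy1.2, hy2.1, hy2.2]

theorem Kset_closed : IsClosed Kset := by
  have h0 : Continuous fun x : E3 => x 0 := (pr 0).continuous
  have h1 : Continuous fun x : E3 => x 1 := (pr 1).continuous
  have h2 : Continuous fun x : E3 => x 2 := (pr 2).continuous
  have : Kset = {x : E3 | |x 0| ≤ 1 + x 2} ∩ {x : E3 | |x 1| ≤ 1 - x 2} := rfl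
  rw [this]
  exact (isClosed_le h0.abs (continuous_const.add h2)).inter
    (isClosed_le h1.abs (continuous_const.sub h2))

theorem Kset_bounded : Bornology.IsBounded Kset := by
  rw [isBounded_iff_forall_norm_le]
  refine ⟨3, fun x hx => ?_⟩
  rw [mem_Kset] at hx
  obtain ⟨h1, h2⟩ := hx
  rw [abs_le] at h1 h2
  rw [EuclideanSpace.norm_eq, Real.sqrt_le_left (by norm_num), Fin.sum_univ_three]
  simp only [Real.norm_eq_abs, sq_abs]
  nlinarith [h1.1, h1.2, h2.1, h2.2]

theorem Kset_compact : IsCompact Kset :=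
  Metric.isCompact_of_isClosed_isBounded Kset_closed Kset_bounded

theorem Kset_interior : (interior Kset).Nonempty := by
  have h0 : Continuous fun x : E3 => x 0 := (pr 0).continuous
  have h1 : Continuous fun x : E3 => x 1 := (pr 1).continuous
  have h2 : Continuous fun x : E3 => x 2 := (pr 2).continuous
  have hopen : IsOpen ({x : E3 | |x 0| < 1 + x 2} ∩ {x : E3 | |x 1| < 1 - x 2}) :=
    (isOpen_lt h0.abs (continuous_const.add h2)).inter
      (isOpen_lt h1.abs (continuous_const.sub h2))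
  refine ⟨0, ?_⟩
  apply interior_maximal _ hopen
  · constructor <;> simp
  · intro x hx
    exact ⟨hx.1.le, hx.2.le⟩

end Vale.Agent.P243
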