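import Vale.Agent.P243.Heads

open MeasureTheory Set
open scoped ENNReal

namespace Vale.Agent.P243

noncomputable def hd : Fin 4 → Heading := ![hdA, hdX, hdB, hdY]

theorem mid_cover (x : E3) (hx : x ∈ Kset) (h1 : -(1 / 20 : ℝ) < x 2) (h2 : x 2 < 1 / 20) :
    ∃ (k : Fin 4) (sg : Bool) (j : ℕ), j < 32 ∧
      (hd k).F.phi ((hd k).eps sg j) x ∈ (hd k).rodS sg j := by
  rw [mem_Kset] at hx
  obtain ⟨hp, hq⟩ := hx
  set p := x 0 with hpdef
  set q := x 1 with hqdef
  set z := x 2 with hzdef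
  have hp' := abs_le.1 hp
  have hq' := abs_le.1 hq
  have hpq1 : |p - q| ≤ 2 := by
    rw [abs_le]; constructor <;> linarith [hp'.1, hp'.2, hq'.1, hq'.2]
  have hpq2 : |p + q| ≤ 2 := by
    rw [abs_le]; constructor <;> linarith [hp'.1, hp'.2, hq'.1, hq'.2]
  have hpq2' := abs_le.1 hpq2
  have hqb : |q * (p + q)| ≤ 4 := by
    rw [abs_mul]
    have : |q| ≤ 2 := by linarith
    calc |q| * |p + q| ≤ 2 * 2 := by gcongr
      _ = 4 := by norm_num
  have hqb' := abs_le.1 hqb
  set F0 : ℝ := -(1 / 8) * (q * (p + q)) with hF0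
  set m : ℤ := ⌊2000 * z - F0⌋ with hm
  have hm1 : (m : ℝ) ≤ 2000 * z - F0 := Int.floor_le _
  have hm2 : 2000 * z - F0 < m + 1 := Int.lt_floor_add_one _
  have hmlo : -101 ≤ m := by
    have : (-102 : ℝ) < m := by linarith [hqb'.1, hqb'.2]
    have : (-102 : ℤ) < m := by exact_mod_cast this
    omega
  have hmhi : m ≤ 100 := by
    have : (m : ℝ) < 101 := by linarith [hqb'.1, hqb'.2]
    have : m < (101 : ℤ) := by exact_mod_cast this
    omega
  by_cases c1 : 2000 * z - m ≤ -(1 / 8) * (q * (p - q))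
  · obtain ⟨sg, j, hj, hmem⟩ := hdA.cover x m hmlo hmhi
      (by simp only [hdA, frA, Frame.yy]; rw [zero_mul, zero_add, one_mul]
          calc |x 1| ≤ 1 - x 2 := hq
            _ < 32 * (1 / 30) := by linarith)
      (by simp only [hdA, frA, Frame.ss]; rw [zero_mul, add_zero, one_mul]
          calc |x 0| ≤ 1 + x 2 := hp
            _ ≤ 21 / 20 := by linarith)
      (by simp only [hdA, frA, Frame.yy, Frame.ss]; nlinarith)
      (by simp only [hdA, frA, Frame.yy, Frame.ss]; nlinarith)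
    exact ⟨0, sg, j, hj, hmem⟩
  · rw [not_le] at c1
    by_cases c2 : 2000 * z - m ≤ 1 / 2 - (1 / 8) * (p * (p - q))
    · obtain ⟨sg, j, hj, hmem⟩ := hdX.cover x m hmlo hmhi
        (by simp only [hdX, frX, Frame.yy]
            have : (1 : ℝ) * x 0 + -1 * x 1 = p - q := by ring
            rw [this]
            calc |p - q| ≤ 2 := hpq1
              _ < 32 * (2 / 31) := by norm_num)
        (by simp only [hdX, frX, Frame.ss]
            have : (1 : ℝ) * x 0 + 1 * x 1 = p + q := by ring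
            rw [this]; exact hpq2)
        (by simp only [hdX, frX, Frame.yy, Frame.ss]; nlinarith)
        (by simp only [hdX, frX, Frame.yy, Frame.ss]; nlinarith)
      exact ⟨1, sg, j, hj, hmem⟩
    · rw [not_le] at c2
      by_cases c3 : 2000 * z - m ≤ 1 / 2 + (1 / 8) * (p * (p + q))
      · obtain ⟨sg, j, hj, hmem⟩ := hdB.cover x m hmlo hmhi
          (by simp only [hdB, frB, Frame.yy]; rw [zero_mul, add_zero, one_mul]
              calc |x 0| ≤ 1 + x 2 := hp
                _ < 32 * (1 / 30) := by linarith)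
          (by simp only [hdB, frB, Frame.ss]; rw [zero_mul, zero_add, one_mul]
              calc |x 1| ≤ 1 - x 2 := hq
                _ ≤ 21 / 20 := by linarith)
          (by simp only [hdB, frB, Frame.yy, Frame.ss]; nlinarith)
          (by simp only [hdB, frB, Frame.yy, Frame.ss]; nlinarith)
        exact ⟨2, sg, j, hj, hmem⟩
      · rw [not_le] at c3
        obtain ⟨sg, j, hj, hmem⟩ := hdY.cover x m hmlo hmhi
          (by simp only [hdY, frY, Frame.yy]
              have : (1 : ℝ) * x 0 + 1 * x 1 = p + q := by ring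
              rw [this]
              calc |p + q| ≤ 2 := hpq2
                _ < 32 * (2 / 31) := by norm_num)
          (by simp only [hdY, frY, Frame.ss]
              have : (1 : ℝ) * x 0 + -1 * x 1 = p - q := by ring
              rw [this]; exact hpq1)
          (by simp only [hdY, frY, Frame.yy, Frame.ss]; nlinarith)
          (by simp only [hdY, frY, Frame.yy, Frame.ss]; nlinarith)
        exact ⟨3, sg, j, hj, hmem⟩

theorem assemble {ι : Type} [Fintype ι] (FF : ι → Frame) (EE : ι → ℝ)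
    (SS S00 : ι → Set (ℝ × ℝ)) (aa bb : ι → ℝ)
    (hS : ∀ i, MeasurableSet (SS i)) (hS0 : ∀ i, MeasurableSet (S00 i))
    (hsub : ∀ i, S00 i ⊆ (FF i).phi (EE i) '' Kset)
    (ha0 : ∀ i, 0 ≤ aa i) (hb0 : ∀ i, 0 < bb i)
    (ha : ∀ i, volume (SS i) ≤ ENNReal.ofReal (aa i))
    (hb : ∀ i, ENNReal.ofReal (bb i) ≤ volume (S00 i))
    (hcov : ∀ x ∈ Kset, ∃ i, (FF i).phi (EE i) x ∈ SS i) :
    ∃ (u : ι → E3) (B : (i : ι) → Set ((ℝ ∙ u i)ᗮ)),
      (∀ i, ‖u i‖ = 1) ∧ (∀ i, MeasurableSet (B i)) ∧ (∀ i, volume (B i) < ⊤) ∧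
      (∀ i, 0 < (volume ((ℝ ∙ u i)ᗮ.orthogonalProjectionOnto '' Kset)).toReal) ∧
      (∀ x ∈ Kset, ∃ i, ∃ b ∈ B i, ∃ t : ℝ, x = (b : E3) + t • u i) ∧
      ∑ i, (volume (B i)).toReal /
        (volume ((ℝ ∙ u i)ᗮ.orthogonalProjectionOnto '' Kset)).toReal ≤ ∑ i, aa i / bb i := by
  refine ⟨fun i => (FF i).uu (EE i),
    fun i => {w : (ℝ ∙ (FF i).uu (EE i))ᗮ | (FF i).phi (EE i) (w : E3) ∈ SS i},
    ?_, ?_, ?_, ?_, ?_, ?_⟩
  · intro i; exact (FF i).norm_uu (EE i)
  · intro i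
    have hc : Continuous fun w : (ℝ ∙ (FF i).uu (EE i))ᗮ => (FF i).phi (EE i) (w : E3) :=
      ((FF i).phi (EE i)).continuous.comp continuous_subtype_val
    exact hc.measurable (hS i)
  · intro i
    exact (term_bound _ _ _ ((FF i).phi_uu (EE i)) ((FF i).phi_sig (EE i)) ((FF i).decomp (EE i))
      Kset Kset_compact (SS i) (S00 i) (hS i) (hS0 i) (hsub i) (aa i) (bb i) (ha0 i) (hb0 i)
      (ha i) (hb i)).1
  · intro i
    exact (term_bound _ _ _ ((FF i).phi_uu (EE i)) ((FF i).phi_sig (EE i)) ((FF i).decomp (EE i))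
      Kset Kset_compact (SS i) (S00 i) (hS i) (hS0 i) (hsub i) (aa i) (bb i) (ha0 i) (hb0 i)
      (ha i) (hb i)).2.1
  · intro x hx
    obtain ⟨i, hi⟩ := hcov x hx
    obtain ⟨t, ht⟩ := exists_decomp ((FF i).uu (EE i)) x
    refine ⟨i, (ℝ ∙ (FF i).uu (EE i))ᗮ.orthogonalProjectionOnto x, ?_, t, ht⟩
    change (FF i).phi (EE i) _ ∈ SS i
    rw [phi_proj _ _ ((FF i).phi_uu (EE i))]
    exact hi
  · apply Finset.sum_le_sum
    intro i _
    exact (term_bound _ _ _ ((FF i).phi_uu (EE i)) ((FF i).phi_sig (EE i)) ((FF i).decomp (EE i))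
      Kset Kset_compact (SS i) (S00 i) (hS i) (hS0 i) (hsub i) (aa i) (bb i) (ha0 i) (hb0 i)
      (ha i) (hb i)).2.2

end Vale.Agent.P243
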