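import Mathlib

namespace Vale.Agent.P243

section General

variable {E : Type} [NormedAddCommGroup E] [InnerProductSpace ℝ E] [FiniteDimensional ℝ E]
  [MeasurableSpace E] [BorelSpace E]

/-- Lebesgue measure of a subset of a linear subspace `W` of a Euclidean space
(the canonical volume of `W` as a Euclidean space in its own right). -/
noncomputable def lebesgueOn (W : Submodule ℝ E) (S : Set W) : ENNReal := MeasureTheory.volume S

/-- Image of `K` under the orthogonal projection onto the subspace `W`. -/
noncomputable def projOnto (W : Submodule ℝ E) (K : Set E) : Set W :=
  W.orthogonalProjectionOnto '' K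

/-- Borel measurability of a subset of the subspace `W`. -/
def measurableIn (W : Submodule ℝ E) (S : Set W) : Prop := MeasurableSet S

/-- The set `B + ℝ u` for a subset `B` of the subspace `W`. -/
def sweep (W : Submodule ℝ E) (u : E) (B : Set W) : Set E :=
  {x | ∃ b ∈ B, ∃ t : ℝ, x = (b : E) + t • u}

end General

/-- Euclidean three-space. -/
abbrev E3 := EuclideanSpace ℝ (Fin 3)

/-- The plane through the origin orthogonal to `u`. -/
noncomputable abbrev Perp (u : E3) : Submodule ℝ E3 := (Submodule.span ℝ {u}).orthogonal

/-- The orthogonal projection of the set `K` onto the plane orthogonal to `u`. -/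
noncomputable def shadow (u : E3) (K : Set E3) : Set (Perp u) := projOnto (Perp u) K

/-- Planar Lebesgue area of a subset of the plane orthogonal to `u`. -/
noncomputable def area (u : E3) (S : Set (Perp u)) : ENNReal := lebesgueOn (Perp u) S

/-- The cylinder `B + ℝ u` with base `B` in the plane orthogonal to `u`. -/
def cylinder (u : E3) (B : Set (Perp u)) : Set E3 := sweep (Perp u) u B

/-- A convex body: compact, convex, nonempty interior. -/
def IsConvexBody (K : Set E3) : Prop := Convex ℝ K ∧ IsCompact K ∧ (interior K).Nonempty

/-- An admissible base: measurable with finite planar area. -/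
def IsBase (u : E3) (B : Set (Perp u)) : Prop := measurableIn (Perp u) B ∧ area u B < ⊤

end Vale.Agent.P243
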