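import Vale.Agent.P243.Cover

open MeasureTheory Set
open scoped ENNReal

namespace Vale.Agent.P243

abbrev Idx := Bool ⊕ (Fin 4 × Bool × Fin 32)

noncomputable def FF : Idx → Frame
  | Sum.inl true => frA
  | Sum.inl false => frB
  | Sum.inr (k, _, _) => (hd k).F

noncomputable def EE : Idx → ℝ
  | Sum.inl _ => 0
  | Sum.inr (k, sg, j) => (hd k).eps sg j

noncomputable def SS : Idx → Set (ℝ × ℝ)
  | Sum.inl true => symRegion (1 + 1 / 10000) (-1) (1 / 20) 1
  | Sum.inl false => symRegion (1 + 1 / 10000) 1 (-1) (-(1 / 20))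
  | Sum.inr (k, sg, j) => (hd k).rodS sg j

noncomputable def S00 : Idx → Set (ℝ × ℝ)
  | Sum.inl true => symRegion 1 (-1) (-1) 1
  | Sum.inl false => symRegion 1 1 (-1) 1
  | Sum.inr (k, _, _) => (hd k).S0

noncomputable def aa : Idx → ℝ
  | Sum.inl _ => 90269 / 100000
  | Sum.inr (k, _, j) => (hd k).rodA j

noncomputable def bb : Idx → ℝ
  | Sum.inl _ => 4
  | Sum.inr (k, _, _) => (hd k).den

theorem hS (i : Idx) : MeasurableSet (SS i) := by
  rcases i with (_ | _) | ⟨k, sg, j⟩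
  · exact symRegion_measurable _ _ _ _
  · exact symRegion_measurable _ _ _ _
  · exact (hd k).rodS_measurable sg j

theorem hS0 (i : Idx) : MeasurableSet (S00 i) := by
  rcases i with (_ | _) | ⟨k, sg, j⟩
  · exact symRegion_measurable _ _ _ _
  · exact symRegion_measurable _ _ _ _
  · exact (hd k).hS0m

theorem hsub (i : Idx) : S00 i ⊆ (FF i).phi (EE i) '' Kset := by
  rcases i with (_ | _) | ⟨k, sg, j⟩
  · exact S0B_sub 0
  · exact S0A_sub 0
  · exact (hd k).hS0 _ ((hd k).eps_le sg j j.2)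

theorem ha0 (i : Idx) : 0 ≤ aa i := by
  rcases i with (_ | _) | ⟨k, sg, j⟩
  · simp only [aa]; norm_num
  · simp only [aa]; norm_num
  · exact (hd k).rodA_nonneg j j.2

theorem hb0 (i : Idx) : 0 < bb i := by
  rcases i with (_ | _) | ⟨k, sg, j⟩
  · simp only [bb]; norm_num
  · simp only [bb]; norm_num
  · exact (hd k).hden

theorem ha (i : Idx) : volume (SS i) ≤ ENNReal.ofReal (aa i) := by
  rcases i with (_ | _) | ⟨k, sg, j⟩
  · simp only [SS, aa]
    rw [symRegion_volume _ _ _ _ (by norm_num) (by intro ζ hζ; linarith [hζ.1])]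
    apply ENNReal.ofReal_le_ofReal
    norm_num
  · simp only [SS, aa]
    rw [symRegion_volume _ _ _ _ (by norm_num) (by intro ζ hζ; linarith [hζ.2])]
    apply ENNReal.ofReal_le_ofReal
    norm_num
  · exact (hd k).rodS_volume sg j

theorem hb (i : Idx) : ENNReal.ofReal (bb i) ≤ volume (S00 i) := by
  rcases i with (_ | _) | ⟨k, sg, j⟩
  · exact hdB.hvol
  · exact hdA.hvol
  · exact (hd k).hvol

theorem hcov (x : E3) (hx : x ∈ Kset) : ∃ i, (FF i).phi (EE i) x ∈ SS i := by
  have hx' := (mem_Kset x).1 hx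
  obtain ⟨hp, hq⟩ := hx'
  have hp' := abs_le.1 hp
  have hq' := abs_le.1 hq
  by_cases c1 : (1 / 20 : ℝ) ≤ x 2
  · refine ⟨Sum.inl true, ?_⟩
    simp only [FF, EE, SS]
    rw [Frame.phi_apply, mem_symRegion]
    simp only [frA, Frame.yy, Frame.ss]
    refine ⟨⟨by linarith, by linarith [abs_nonneg (x 1)]⟩, by linarith [hq'.1], by linarith [hq'.2]⟩
  · rw [not_le] at c1
    by_cases c2 : x 2 ≤ -(1 / 20 : ℝ)
    · refine ⟨Sum.inl false, ?_⟩
      simp only [FF, EE, SS]
      rw [Frame.phi_apply, mem_symRegion]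
      simp only [frB, Frame.yy, Frame.ss]
      refine ⟨⟨by linarith [abs_nonneg (x 0)], by linarith⟩, by linarith [hp'.1],
        by linarith [hp'.2]⟩
    · rw [not_le] at c2
      obtain ⟨k, sg, j, hj, hmem⟩ := mid_cover x hx c2 c1
      exact ⟨Sum.inr (k, sg, ⟨j, hj⟩), hmem⟩

end Vale.Agent.P243
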