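import Vale.Agent.P243.Ratio

open MeasureTheory Set
open scoped ENNReal

namespace Vale.Agent.P243

structure Frame where
  y1 : ℝ
  y2 : ℝ
  s1 : ℝ
  s2 : ℝ
  c1 : ℝ
  c2 : ℝ
  d1 : ℝ
  d2 : ℝ
  hyc : y1 * c1 + y2 * c2 = 1
  hyd : y1 * d1 + y2 * d2 = 0
  hsc : s1 * c1 + s2 * c2 = 0
  hsd : s1 * d1 + s2 * d2 = 1
  h11 : c1 * y1 + d1 * s1 = 1
  h12 : c1 * y2 + d1 * s2 = 0
  h21 : c2 * y1 + d2 * s1 = 0
  h22 : c2 * y2 + d2 * s2 = 1

noncomputable def pr (i : Fin 3) : E3 →L[ℝ] ℝ := EuclideanSpace.proj i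

@[simp] theorem pr_apply (i : Fin 3) (x : E3) : pr i x = x i := rfl

namespace Frame

variable (F : Frame) (ε : ℝ)

def yy (x : E3) : ℝ := F.y1 * x 0 + F.y2 * x 1
def ss (x : E3) : ℝ := F.s1 * x 0 + F.s2 * x 1

noncomputable def phi : E3 →L[ℝ] ℝ × ℝ :=
  (pr 2 - ε • (F.s1 • pr 0 + F.s2 • pr 1)).prod (F.y1 • pr 0 + F.y2 • pr 1)

theorem phi_apply (x : E3) : F.phi ε x = (x 2 - ε * F.ss x, F.yy x) := by
  simp [phi, yy, ss, mul_add]

noncomputable def sig : ℝ × ℝ →L[ℝ] E3 :=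
  (ContinuousLinearMap.snd ℝ ℝ ℝ).smulRight (!₂[F.c1, F.c2, 0] : E3) +
    (ContinuousLinearMap.fst ℝ ℝ ℝ).smulRight (!₂[0, 0, 1] : E3)

theorem sig_apply (w : ℝ × ℝ) : F.sig w = !₂[F.c1 * w.2, F.c2 * w.2, w.1] := by
  ext i
  fin_cases i <;> simp [sig, mul_comm]

noncomputable def dir : E3 := !₂[F.d1, F.d2, ε]

theorem dir_ne : F.dir ε ≠ 0 := by
  intro h
  have h0 : (F.dir ε) 0 = 0 := by rw [h]; rfl
  have h1 : (F.dir ε) 1 = 0 := by rw [h]; rfl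
  simp [dir] at h0 h1
  have := F.hsd
  rw [h0, h1] at this
  simp at this

noncomputable def uu : E3 := (‖F.dir ε‖)⁻¹ • F.dir ε

theorem norm_uu : ‖F.uu ε‖ = 1 := by
  have h : ‖F.dir ε‖ ≠ 0 := norm_ne_zero_iff.2 (F.dir_ne ε)
  rw [uu, norm_smul, norm_inv, norm_norm, inv_mul_cancel₀ h]

theorem phi_dir : F.phi ε (F.dir ε) = 0 := by
  rw [phi_apply]
  have h1 := F.hsd
  have h2 := F.hyd
  simp [dir, ss, yy, h1, h2]

theorem phi_uu : F.phi ε (F.uu ε) = 0 := by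
  rw [uu, map_smul, phi_dir, smul_zero]

theorem phi_sig (w : ℝ × ℝ) : F.phi ε (F.sig w) = w := by
  rw [phi_apply, sig_apply]
  have h1 : F.s1 * (F.c1 * w.2) + F.s2 * (F.c2 * w.2) = 0 := by
    have := F.hsc
    calc _ = (F.s1 * F.c1 + F.s2 * F.c2) * w.2 := by ring
      _ = 0 := by rw [this]; ring
  have h2 : F.y1 * (F.c1 * w.2) + F.y2 * (F.c2 * w.2) = w.2 := by
    have := F.hyc
    calc _ = (F.y1 * F.c1 + F.y2 * F.c2) * w.2 := by ring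
      _ = w.2 := by rw [this]; ring
  ext <;> simp [ss, yy, h1, h2]

theorem decomp (x : E3) : ∃ t : ℝ, x = F.sig (F.phi ε x) + t • F.uu ε := by
  have h : ‖F.dir ε‖ ≠ 0 := norm_ne_zero_iff.2 (F.dir_ne ε)
  refine ⟨F.ss x * ‖F.dir ε‖, ?_⟩
  rw [uu, smul_smul, mul_assoc, mul_inv_cancel₀ h, mul_one, phi_apply, sig_apply]
  ext i
  fin_cases i
  · simp [dir, ss, yy]
    have e1 := F.h11
    have e2 := F.h12
    linear_combination (-(x.ofLp 0)) * e1 - (x.ofLp 1) * e2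
  · simp [dir, ss, yy]
    have e1 := F.h21
    have e2 := F.h22
    linear_combination (-(x.ofLp 0)) * e1 - (x.ofLp 1) * e2
  · simp [dir, ss, yy]
    ring

end Frame

end Vale.Agent.P243
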