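import Vale.Agent.P243.Rod

open MeasureTheory Set
open scoped ENNReal

namespace Vale.Agent.P243

noncomputable def frA : Frame where
  y1 := 0
  y2 := 1
  s1 := 1
  s2 := 0
  c1 := 0
  c2 := 1
  d1 := 1
  d2 := 0
  hyc := by norm_num
  hyd := by norm_num
  hsc := by norm_num
  hsd := by norm_num
  h11 := by norm_num
  h12 := by norm_num
  h21 := by norm_num
  h22 := by norm_num

noncomputable def frB : Frame where
  y1 := 1
  y2 := 0
  s1 := 0
  s2 := 1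
  c1 := 1
  c2 := 0
  d1 := 0
  d2 := 1
  hyc := by norm_num
  hyd := by norm_num
  hsc := by norm_num
  hsd := by norm_num
  h11 := by norm_num
  h12 := by norm_num
  h21 := by norm_num
  h22 := by norm_num

noncomputable def frX : Frame where
  y1 := 1
  y2 := -1
  s1 := 1
  s2 := 1
  c1 := 1 / 2
  c2 := -1 / 2
  d1 := 1 / 2
  d2 := 1 / 2
  hyc := by norm_num
  hyd := by norm_num
  hsc := by norm_num
  hsd := by norm_num
  h11 := by norm_num
  h12 := by norm_num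
  h21 := by norm_num
  h22 := by norm_num

noncomputable def frY : Frame where
  y1 := 1
  y2 := 1
  s1 := 1
  s2 := -1
  c1 := 1 / 2
  c2 := 1 / 2
  d1 := 1 / 2
  d2 := -1 / 2
  hyc := by norm_num
  hyd := by norm_num
  hsc := by norm_num
  hsd := by norm_num
  h11 := by norm_num
  h12 := by norm_num
  h21 := by norm_num
  h22 := by norm_num

theorem S0A_sub (ε : ℝ) : symRegion 1 (-1) (-1) 1 ⊆ frA.phi ε '' Kset := by
  intro w hw
  rw [mem_symRegion] at hw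
  obtain ⟨⟨h1, h2⟩, h3, h4⟩ := hw
  refine ⟨frA.sig w, ?_, frA.phi_sig ε w⟩
  rw [Frame.sig_apply, mem_Kset]
  simp [frA]
  constructor
  · linarith
  · rw [abs_le]; constructor <;> linarith

theorem S0B_sub (ε : ℝ) : symRegion 1 1 (-1) 1 ⊆ frB.phi ε '' Kset := by
  intro w hw
  rw [mem_symRegion] at hw
  obtain ⟨⟨h1, h2⟩, h3, h4⟩ := hw
  refine ⟨frB.sig w, ?_, frB.phi_sig ε w⟩
  rw [Frame.sig_apply, mem_Kset]
  simp [frB]
  constructor
  · rw [abs_le]; constructor <;> linarith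
  · linarith

theorem tt_bound (ε ζ y : ℝ) (hε : |ε| ≤ 1 / 1600) (hζ : |ζ| < 799 / 800) (hy : |y| < 2) :
    0 < 1 - ε * y ∧ |ζ / (1 - ε * y)| ≤ 1 := by
  have h1 : |ε * y| ≤ 1 / 800 := by
    rw [abs_mul]
    calc |ε| * |y| ≤ 1 / 1600 * 2 := by gcongr
      _ = 1 / 800 := by norm_num
  rw [abs_le] at h1
  have h2 : 0 < 1 - ε * y := by linarith [h1.2]
  refine ⟨h2, ?_⟩
  rw [abs_div, abs_of_pos h2, div_le_one h2]
  linarith [h1.2]

theorem S0X_sub (ε : ℝ) (hε : |ε| ≤ 1 / 1600) :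
    Ioo (-(799 / 800 : ℝ)) (799 / 800) ×ˢ Ioo (-2 : ℝ) 2 ⊆ frX.phi ε '' Kset := by
  rintro ⟨ζ, y⟩ ⟨hζ, hy⟩
  simp only at hζ hy
  have hζ' : |ζ| < 799 / 800 := abs_lt.2 hζ
  have hy' : |y| < 2 := abs_lt.2 hy
  obtain ⟨hpos, ht⟩ := tt_bound ε ζ y hε hζ' hy'
  set t := ζ / (1 - ε * y) with htdef
  have hteq : t * (1 - ε * y) = ζ := by rw [htdef]; field_simp
  rw [abs_le] at ht
  refine ⟨!₂[(1 + t) * y / 2, -((1 - t) * y / 2), t], ?_, ?_⟩
  · rw [mem_Kset]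
    simp
    constructor
    · rw [abs_le]; constructor <;> nlinarith [hy.1, hy.2, ht.1, ht.2]
    · rw [abs_le]; constructor <;> nlinarith [hy.1, hy.2, ht.1, ht.2]
  · rw [Frame.phi_apply]
    simp [frX, Frame.ss, Frame.yy]
    constructor
    · rw [← hteq]; ring
    · ring

theorem S0Y_sub (ε : ℝ) (hε : |ε| ≤ 1 / 1600) :
    Ioo (-(799 / 800 : ℝ)) (799 / 800) ×ˢ Ioo (-2 : ℝ) 2 ⊆ frY.phi ε '' Kset := by
  rintro ⟨ζ, y⟩ ⟨hζ, hy⟩
  simp only at hζ hy
  have hζ' : |ζ| < 799 / 800 := abs_lt.2 hζ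
  have hy' : |y| < 2 := abs_lt.2 hy
  obtain ⟨hpos, ht⟩ := tt_bound ε ζ y hε hζ' hy'
  set t := ζ / (1 - ε * y) with htdef
  have hteq : t * (1 - ε * y) = ζ := by rw [htdef]; field_simp
  rw [abs_le] at ht
  refine ⟨!₂[(1 + t) * y / 2, (1 - t) * y / 2, t], ?_, ?_⟩
  · rw [mem_Kset]
    simp
    constructor
    · rw [abs_le]; constructor <;> nlinarith [hy.1, hy.2, ht.1, ht.2]
    · rw [abs_le]; constructor <;> nlinarith [hy.1, hy.2, ht.1, ht.2]
  · rw [Frame.phi_apply]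
    simp [frY, Frame.ss, Frame.yy]
    constructor
    · rw [← hteq]; ring
    · ring

theorem hG_convex (j : ℕ) (y : ℝ) (_h1 : (j : ℝ) * (1 / 30) ≤ |y|)
    (h2 : |y| ≤ ((j : ℝ) + 1) * (1 / 30)) : (1 / 8 : ℝ) * y ^ 2 ≤ ((j : ℝ) + 1) ^ 2 / 7200 := by
  have h3 : y ^ 2 = |y| ^ 2 := (sq_abs y).symm
  have h4 : 0 ≤ |y| := abs_nonneg y
  rw [h3]
  nlinarith

theorem hG_concave (j : ℕ) (y : ℝ) (h1 : (j : ℝ) * (2 / 31) ≤ |y|)
    (_h2 : |y| ≤ ((j : ℝ) + 1) * (2 / 31)) : (-1 / 16 : ℝ) * y ^ 2 ≤ -(j : ℝ) ^ 2 / 3844 := by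
  have h3 : y ^ 2 = |y| ^ 2 := (sq_abs y).symm
  have h4 : (0 : ℝ) ≤ j := Nat.cast_nonneg j
  rw [h3]
  nlinarith

theorem hθ_convex (c : ℝ) (j : ℕ) :
    0 ≤ c - c + 2 * (7 / 3200 : ℝ) + 2 * (((j : ℝ) + 1) ^ 2 / 7200) := by
  rw [sub_self, zero_add]
  positivity

theorem hθ_concave (j : ℕ) (hj : j < 32) :
    (0 : ℝ) ≤ 1 / 2 + 2 * (1 / 248 : ℝ) + 2 * (-(j : ℝ) ^ 2 / 3844) := by
  have h1 : (j : ℝ) ≤ 31 := by exact_mod_cast Nat.lt_succ_iff.1 hj
  have h2 : (0 : ℝ) ≤ j := Nat.cast_nonneg j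
  nlinarith

noncomputable def hdA : Heading where
  F := frA
  τ := -1 / 8
  g := 1 / 8
  cm := 0
  cp := 0
  Δ := 1 / 30
  W := 7 / 3200
  den := 4
  Smax := 21 / 20
  G := fun j => ((j : ℝ) + 1) ^ 2 / 7200
  S0 := symRegion 1 (-1) (-1) 1
  hΔ := by norm_num
  hW := by rw [abs_of_neg (by norm_num)]; norm_num
  hG := hG_convex
  hθ := fun j _ => hθ_convex 0 j
  hS0m := symRegion_measurable _ _ _ _
  hS0 := fun ε _ => S0A_sub ε
  hden := by norm_num
  hvol := by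
    rw [symRegion_volume 1 (-1) (-1) 1 (by norm_num) (by intro ζ hζ; linarith [hζ.2])]
    apply ENNReal.ofReal_le_ofReal
    norm_num
  hτ := by rw [abs_of_neg (by norm_num)]; norm_num

noncomputable def hdB : Heading where
  F := frB
  τ := 1 / 8
  g := 1 / 8
  cm := 1 / 2
  cp := 1 / 2
  Δ := 1 / 30
  W := 7 / 3200
  den := 4
  Smax := 21 / 20
  G := fun j => ((j : ℝ) + 1) ^ 2 / 7200
  S0 := symRegion 1 1 (-1) 1
  hΔ := by norm_num
  hW := by rw [abs_of_pos (by norm_num)]; norm_num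
  hG := hG_convex
  hθ := fun j _ => hθ_convex (1 / 2) j
  hS0m := symRegion_measurable _ _ _ _
  hS0 := fun ε _ => S0B_sub ε
  hden := by norm_num
  hvol := by
    rw [symRegion_volume 1 1 (-1) 1 (by norm_num) (by intro ζ hζ; linarith [hζ.1])]
    apply ENNReal.ofReal_le_ofReal
    norm_num
  hτ := by rw [abs_of_pos (by norm_num)]; norm_num

noncomputable def hdX : Heading where
  F := frX
  τ := -1 / 16
  g := -1 / 16
  cm := 0
  cp := 1 / 2
  Δ := 2 / 31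
  W := 1 / 248
  den := 799 / 100
  Smax := 2
  G := fun j => -(j : ℝ) ^ 2 / 3844
  S0 := Ioo (-(799 / 800 : ℝ)) (799 / 800) ×ˢ Ioo (-2 : ℝ) 2
  hΔ := by norm_num
  hW := by rw [abs_of_neg (by norm_num)]; norm_num
  hG := hG_concave
  hθ := fun j hj => by have := hθ_concave j hj; linarith
  hS0m := measurableSet_Ioo.prod measurableSet_Ioo
  hS0 := S0X_sub
  hden := by norm_num
  hvol := by
    rw [rect_volume (799 / 800) (by norm_num)]
    apply ENNReal.ofReal_le_ofReal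
    norm_num
  hτ := by rw [abs_of_neg (by norm_num)]; norm_num

noncomputable def hdY : Heading where
  F := frY
  τ := 1 / 16
  g := -1 / 16
  cm := 1 / 2
  cp := 1
  Δ := 2 / 31
  W := 1 / 248
  den := 799 / 100
  Smax := 2
  G := fun j => -(j : ℝ) ^ 2 / 3844
  S0 := Ioo (-(799 / 800 : ℝ)) (799 / 800) ×ˢ Ioo (-2 : ℝ) 2
  hΔ := by norm_num
  hW := by rw [abs_of_pos (by norm_num)]; norm_num
  hG := hG_concave
  hθ := fun j hj => by have := hθ_concave j hj; linarith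
  hS0m := measurableSet_Ioo.prod measurableSet_Ioo
  hS0 := S0Y_sub
  hden := by norm_num
  hvol := by
    rw [rect_volume (799 / 800) (by norm_num)]
    apply ENNReal.ofReal_le_ofReal
    norm_num
  hτ := by rw [abs_of_pos (by norm_num)]; norm_num

end Vale.Agent.P243
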