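import Vale.Agent.P243.Defs

open MeasureTheory Set
open scoped ENNReal

namespace Vale.Agent.P243

variable (u : E3) (φ : E3 →L[ℝ] ℝ × ℝ) (σ : ℝ × ℝ →L[ℝ] E3)

theorem phi_proj (hφu : φ u = 0) (x : E3) :
    φ (((ℝ ∙ u)ᗮ.orthogonalProjectionOnto x : (ℝ ∙ u)ᗮ) : E3) = φ x := by
  have h1 : ((ℝ ∙ u)ᗮ.orthogonalProjectionOnto x : E3) = x - (ℝ ∙ u).starProjection x := by
    rw [Submodule.coe_orthogonalProjectionOnto_apply, Submodule.starProjection_orthogonal_val]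
  have h2 : (ℝ ∙ u).starProjection x ∈ (ℝ ∙ u) := Submodule.starProjection_apply_mem _ _
  obtain ⟨t, ht⟩ := Submodule.mem_span_singleton.1 h2
  rw [h1, map_sub, ← ht, map_smul, hφu, smul_zero, sub_zero]

theorem proj_eq_of_phi_eq (hx : ∀ x, ∃ t : ℝ, x = σ (φ x) + t • u)
    (w : (ℝ ∙ u)ᗮ) (x : E3) (h : φ (w : E3) = φ x) :
    (ℝ ∙ u)ᗮ.orthogonalProjectionOnto x = w := by
  obtain ⟨t, ht⟩ := hx x
  obtain ⟨s, hs⟩ := hx (w : E3)
  apply Subtype.ext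
  rw [Submodule.coe_orthogonalProjectionOnto_apply]
  apply Submodule.eq_starProjection_of_mem_orthogonal w.2
  rw [Submodule.orthogonal_orthogonal]
  have : x - (w : E3) = (t - s) • u := by
    rw [sub_smul]
    calc x - (w : E3) = (σ (φ x) + t • u) - (σ (φ (w : E3)) + s • u) := by rw [← ht, ← hs]
      _ = t • u - s • u := by rw [h]; abel
  rw [this]
  exact Submodule.smul_mem _ _ (Submodule.mem_span_singleton_self u)

noncomputable def equivW (hφu : φ u = 0) (hφσ : ∀ y, φ (σ y) = y)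
    (hx : ∀ x, ∃ t : ℝ, x = σ (φ x) + t • u) : (ℝ ∙ u)ᗮ ≃L[ℝ] ℝ × ℝ :=
  ContinuousLinearEquiv.equivOfInverse (φ.comp (ℝ ∙ u)ᗮ.subtypeL)
    ((ℝ ∙ u)ᗮ.orthogonalProjectionOnto.comp σ)
    (fun w => by
      simp only [ContinuousLinearMap.comp_apply, Submodule.subtypeL_apply]
      apply proj_eq_of_phi_eq u φ σ hx
      rw [hφσ])
    (fun y => by
      simp only [ContinuousLinearMap.comp_apply, Submodule.subtypeL_apply]
      rw [phi_proj u φ hφu, hφσ])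

theorem exists_scale (hφu : φ u = 0) (hφσ : ∀ y, φ (σ y) = y)
    (hx : ∀ x, ∃ t : ℝ, x = σ (φ x) + t • u) :
    ∃ c : ℝ≥0∞, c ≠ 0 ∧ c ≠ ⊤ ∧ ∀ S : Set (ℝ × ℝ), MeasurableSet S →
      volume {w : (ℝ ∙ u)ᗮ | φ (w : E3) ∈ S} = c * volume S := by
  set e := equivW u φ σ hφu hφσ hx with he
  have hHaar : (Measure.map e (volume : Measure (ℝ ∙ u)ᗮ)).IsAddHaarMeasure :=
    e.isAddHaarMeasure_map _
  have h1 := Measure.isAddLeftInvariant_eq_smul (Measure.map e (volume : Measure (ℝ ∙ u)ᗮ))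
    (volume : Measure (ℝ × ℝ))
  have hpos := Measure.addHaarScalarFactor_pos_of_isAddHaarMeasure
    (Measure.map e (volume : Measure (ℝ ∙ u)ᗮ)) (volume : Measure (ℝ × ℝ))
  refine ⟨(Measure.addHaarScalarFactor (Measure.map e (volume : Measure (ℝ ∙ u)ᗮ))
    (volume : Measure (ℝ × ℝ)) : ℝ≥0∞), ?_, ENNReal.coe_ne_top, ?_⟩
  · exact_mod_cast hpos.ne'
  · intro S hS
    have h2 : Measure.map e (volume : Measure (ℝ ∙ u)ᗮ) S
        = volume {w : (ℝ ∙ u)ᗮ | φ (w : E3) ∈ S} := by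
      rw [Measure.map_apply e.continuous.measurable hS]
      rfl
    rw [← h2]
    have h3 := congrArg (fun μ : Measure (ℝ × ℝ) => μ S) h1
    simp only [Measure.smul_apply] at h3
    rw [h3]
    rfl

theorem term_bound (hφu : φ u = 0) (hφσ : ∀ y, φ (σ y) = y)
    (hx : ∀ x, ∃ t : ℝ, x = σ (φ x) + t • u) (K : Set E3) (hK : IsCompact K)
    (S S0 : Set (ℝ × ℝ)) (hS : MeasurableSet S) (hS0 : MeasurableSet S0)
    (hsub : S0 ⊆ φ '' K) (a b : ℝ) (ha0 : 0 ≤ a) (hb0 : 0 < b)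
    (ha : volume S ≤ ENNReal.ofReal a) (hb : ENNReal.ofReal b ≤ volume S0) :
    volume {w : (ℝ ∙ u)ᗮ | φ (w : E3) ∈ S} < ⊤ ∧
    0 < (volume ((ℝ ∙ u)ᗮ.orthogonalProjectionOnto '' K)).toReal ∧
    (volume {w : (ℝ ∙ u)ᗮ | φ (w : E3) ∈ S}).toReal /
      (volume ((ℝ ∙ u)ᗮ.orthogonalProjectionOnto '' K)).toReal ≤ a / b := by
  obtain ⟨c, hc0, hctop, hc⟩ := exists_scale u φ σ hφu hφσ hx
  have hB : volume {w : (ℝ ∙ u)ᗮ | φ (w : E3) ∈ S} ≤ c * ENNReal.ofReal a := by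
    rw [hc S hS]; gcongr
  have hBtop : volume {w : (ℝ ∙ u)ᗮ | φ (w : E3) ∈ S} < ⊤ :=
    lt_of_le_of_lt hB (ENNReal.mul_lt_top hctop.lt_top ENNReal.ofReal_lt_top)
  refine ⟨hBtop, ?_⟩
  have hsub2 : {w : (ℝ ∙ u)ᗮ | φ (w : E3) ∈ S0} ⊆ (ℝ ∙ u)ᗮ.orthogonalProjectionOnto '' K := by
    intro w hw
    obtain ⟨x, hxK, hxw⟩ := hsub hw
    exact ⟨x, hxK, proj_eq_of_phi_eq u φ σ hx w x hxw.symm⟩
  have hP : c * ENNReal.ofReal b ≤ volume ((ℝ ∙ u)ᗮ.orthogonalProjectionOnto '' K) := by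
    calc c * ENNReal.ofReal b ≤ c * volume S0 := by gcongr
      _ = volume {w : (ℝ ∙ u)ᗮ | φ (w : E3) ∈ S0} := (hc S0 hS0).symm
      _ ≤ _ := measure_mono hsub2
  have hPtop : volume ((ℝ ∙ u)ᗮ.orthogonalProjectionOnto '' K) < ⊤ :=
    (hK.image (ℝ ∙ u)ᗮ.orthogonalProjectionOnto.continuous).measure_lt_top
  have hcpos : 0 < c.toReal := ENNReal.toReal_pos hc0 hctop
  have h1 : (volume {w : (ℝ ∙ u)ᗮ | φ (w : E3) ∈ S}).toReal ≤ c.toReal * a := by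
    have := ENNReal.toReal_mono (ENNReal.mul_lt_top hctop.lt_top ENNReal.ofReal_lt_top).ne hB
    rwa [ENNReal.toReal_mul, ENNReal.toReal_ofReal ha0] at this
  have h2 : c.toReal * b ≤ (volume ((ℝ ∙ u)ᗮ.orthogonalProjectionOnto '' K)).toReal := by
    have := ENNReal.toReal_mono hPtop.ne hP
    rwa [ENNReal.toReal_mul, ENNReal.toReal_ofReal hb0.le] at this
  have h3 : 0 < c.toReal * b := mul_pos hcpos hb0
  refine ⟨lt_of_lt_of_le h3 h2, ?_⟩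
  calc _ ≤ (c.toReal * a) / (c.toReal * b) := by
        apply div_le_div₀ (mul_nonneg hcpos.le ha0) h1 h3 h2
    _ = a / b := by field_simp

theorem exists_decomp (x : E3) :
    ∃ t : ℝ, x = (((ℝ ∙ u)ᗮ.orthogonalProjectionOnto x : (ℝ ∙ u)ᗮ) : E3) + t • u := by
  have h1 : ((ℝ ∙ u)ᗮ.orthogonalProjectionOnto x : E3) = x - (ℝ ∙ u).starProjection x := by
    rw [Submodule.coe_orthogonalProjectionOnto_apply, Submodule.starProjection_orthogonal_val]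
  have h2 : (ℝ ∙ u).starProjection x ∈ (ℝ ∙ u) := Submodule.starProjection_apply_mem _ _
  obtain ⟨t, ht⟩ := Submodule.mem_span_singleton.1 h2
  refine ⟨t, ?_⟩
  rw [h1, ht]
  abel

end Vale.Agent.P243
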