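import Vale.Agent.P243.Area

open MeasureTheory Set
open scoped ENNReal

namespace Vale.Agent.P243

theorem rod_mem (τ g cm cp Δ S W : ℝ) (G : ℕ → ℝ) (n : ℕ) (hΔ : 0 < Δ)
    (hW : |τ| * (Δ / 2) * S ≤ W)
    (hG : ∀ (j : ℕ) (y : ℝ), (j : ℝ) * Δ ≤ |y| → |y| ≤ ((j : ℝ) + 1) * Δ → g * y ^ 2 ≤ G j)
    (y s ξ : ℝ) (hy : |y| < (n : ℝ) * Δ) (hs : |s| ≤ S)
    (h1 : τ * y * s - g * y ^ 2 + cm ≤ ξ) (h2 : ξ ≤ τ * y * s + g * y ^ 2 + cp) :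
    ∃ (sg : Bool) (j : ℕ), j < n ∧ y ∈ strip Δ sg j ∧
      cm - W - G j ≤ ξ - τ * mid Δ sg j * s ∧ ξ - τ * mid Δ sg j * s ≤ cp + W + G j := by
  set j := ⌊|y| / Δ⌋₊ with hj
  have hj1 : (j : ℝ) * Δ ≤ |y| := by
    have := Nat.floor_le (div_nonneg (abs_nonneg y) hΔ.le)
    rwa [le_div_iff₀ hΔ] at this
  have hj2 : |y| ≤ ((j : ℝ) + 1) * Δ := by
    have := (Nat.lt_floor_add_one (|y| / Δ)).le
    rwa [div_le_iff₀ hΔ] at this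
  have hjn : j < n := by
    rw [hj, Nat.floor_lt (div_nonneg (abs_nonneg y) hΔ.le), div_lt_iff₀ hΔ]
    exact hy
  have hGj := hG j y hj1 hj2
  have key : ∀ mm : ℝ, |y - mm| ≤ Δ / 2 → |τ * (y - mm) * s| ≤ W := by
    intro mm hmm
    rw [abs_mul, abs_mul]
    calc |τ| * |y - mm| * |s| ≤ |τ| * (Δ / 2) * S := by
          have hS : 0 ≤ S := le_trans (abs_nonneg s) hs
          gcongr
      _ ≤ W := hW
  rcases le_total 0 y with h0 | h0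
  · refine ⟨true, j, hjn, ?_, ?_, ?_⟩
    · rw [abs_of_nonneg h0] at hj1 hj2
      simp only [strip, if_true]
      exact ⟨hj1, hj2⟩
    all_goals
      rw [abs_of_nonneg h0] at hj1 hj2
      have hk := key (mid Δ true j) (by
        simp only [mid, sgn, if_true]
        rw [abs_le]; constructor <;> linarith)
      rw [abs_le] at hk
      nlinarith [hk.1, hk.2]
  · refine ⟨false, j, hjn, ?_, ?_, ?_⟩
    · rw [abs_of_nonpos h0] at hj1 hj2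
      simp only [strip, Bool.false_eq_true, if_false]
      exact ⟨by linarith, by linarith⟩
    all_goals
      rw [abs_of_nonpos h0] at hj1 hj2
      have hk := key (mid Δ false j) (by
        simp only [mid, sgn, Bool.false_eq_true, if_false]
        rw [abs_le]; constructor <;> linarith)
      rw [abs_le] at hk
      nlinarith [hk.1, hk.2]

structure Heading where
  F : Frame
  τ : ℝ
  g : ℝ
  cm : ℝ
  cp : ℝ
  Δ : ℝ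
  W : ℝ
  den : ℝ
  Smax : ℝ
  G : ℕ → ℝ
  S0 : Set (ℝ × ℝ)
  hΔ : 0 < Δ
  hW : |τ| * (Δ / 2) * Smax ≤ W
  hG : ∀ (j : ℕ) (y : ℝ), (j : ℝ) * Δ ≤ |y| → |y| ≤ ((j : ℝ) + 1) * Δ → g * y ^ 2 ≤ G j
  hθ : ∀ j : ℕ, j < 32 → 0 ≤ cp - cm + 2 * W + 2 * G j
  hS0m : MeasurableSet S0
  hS0 : ∀ ε : ℝ, |ε| ≤ 1 / 1600 → S0 ⊆ F.phi ε '' Kset
  hden : 0 < den
  hvol : ENNReal.ofReal den ≤ volume S0
  hτ : |τ| * (32 * Δ) ≤ 1

namespace Heading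

variable (Hh : Heading)

noncomputable def eps (sg : Bool) (j : ℕ) : ℝ := Hh.τ * mid Hh.Δ sg j / 2000

def rodS (sg : Bool) (j : ℕ) : Set (ℝ × ℝ) :=
  ZZ (Hh.cm - Hh.W - Hh.G j) (Hh.cp + Hh.W + Hh.G j) ×ˢ strip Hh.Δ sg j

noncomputable def rodA (j : ℕ) : ℝ :=
  202 * ((Hh.cp - Hh.cm + 2 * Hh.W + 2 * Hh.G j) / 2000) * Hh.Δ

theorem rodS_measurable (sg : Bool) (j : ℕ) : MeasurableSet (Hh.rodS sg j) :=
  (ZZ_measurable _ _).prod (strip_measurable _ _ _)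

theorem rodS_volume (sg : Bool) (j : ℕ) :
    volume (Hh.rodS sg j) ≤ ENNReal.ofReal (Hh.rodA j) := by
  have := rod_volume (Hh.cm - Hh.W - Hh.G j) (Hh.cp + Hh.W + Hh.G j) Hh.Δ sg j
  have e : Hh.cp + Hh.W + Hh.G j - (Hh.cm - Hh.W - Hh.G j)
      = Hh.cp - Hh.cm + 2 * Hh.W + 2 * Hh.G j := by ring
  rw [e] at this
  exact this

theorem rodA_nonneg (j : ℕ) (hj : j < 32) : 0 ≤ Hh.rodA j := by
  have h1 := Hh.hθ j hj
  have h2 := Hh.hΔ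
  unfold rodA
  positivity

theorem eps_le (sg : Bool) (j : ℕ) (hj : j < 32) : |Hh.eps sg j| ≤ 1 / 1600 := by
  have h1 := Hh.hτ
  have h2 := Hh.hΔ
  have hj' : (j : ℝ) + 1 ≤ 32 := by exact_mod_cast hj
  have hm : |mid Hh.Δ sg j| ≤ 32 * Hh.Δ := by
    unfold mid sgn
    rw [abs_mul, abs_of_nonneg (by positivity : (0 : ℝ) ≤ ((j : ℝ) + 1 / 2) * Hh.Δ)]
    have : |(if sg = true then (1 : ℝ) else -1)| = 1 := by split_ifs <;> simp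
    rw [this, one_mul]
    nlinarith
  unfold eps
  rw [abs_div, abs_mul, abs_of_pos (by norm_num : (0 : ℝ) < 2000), div_le_iff₀ (by norm_num)]
  calc |Hh.τ| * |mid Hh.Δ sg j| ≤ |Hh.τ| * (32 * Hh.Δ) := by gcongr
    _ ≤ 1 := h1
    _ ≤ 1 / 1600 * 2000 := by norm_num

theorem cover (x : E3) (m : ℤ) (hm1 : -101 ≤ m) (hm2 : m ≤ 100)
    (hy : |Hh.F.yy x| < 32 * Hh.Δ) (hs : |Hh.F.ss x| ≤ Hh.Smax)
    (h1 : Hh.τ * Hh.F.yy x * Hh.F.ss x - Hh.g * Hh.F.yy x ^ 2 + Hh.cm ≤ 2000 * x 2 - m)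
    (h2 : 2000 * x 2 - m ≤ Hh.τ * Hh.F.yy x * Hh.F.ss x + Hh.g * Hh.F.yy x ^ 2 + Hh.cp) :
    ∃ (sg : Bool) (j : ℕ), j < 32 ∧ Hh.F.phi (Hh.eps sg j) x ∈ Hh.rodS sg j := by
  obtain ⟨sg, j, hj, hst, hlo, hhi⟩ := rod_mem Hh.τ Hh.g Hh.cm Hh.cp Hh.Δ Hh.Smax Hh.W Hh.G 32
    Hh.hΔ Hh.hW Hh.hG (Hh.F.yy x) (Hh.F.ss x) (2000 * x 2 - m) (by exact_mod_cast hy) hs h1 h2
  refine ⟨sg, j, hj, ?_⟩
  rw [Frame.phi_apply]
  refine ⟨?_, hst⟩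
  apply mem_ZZ _ _ _ m hm1 hm2
  · simp only [eps]
    have : 2000 * (x 2 - Hh.τ * mid Hh.Δ sg j / 2000 * Hh.F.ss x) - (m : ℝ)
        = 2000 * x 2 - m - Hh.τ * mid Hh.Δ sg j * Hh.F.ss x := by ring
    rw [this]; exact hlo
  · simp only [eps]
    have : 2000 * (x 2 - Hh.τ * mid Hh.Δ sg j / 2000 * Hh.F.ss x) - (m : ℝ)
        = 2000 * x 2 - m - Hh.τ * mid Hh.Δ sg j * Hh.F.ss x := by ring
    rw [this]; exact hhi

end Heading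

end Vale.Agent.P243
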