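import Vale.Agent.P243.Final

open MeasureTheory Set
open scoped ENNReal

namespace Vale.Agent.P243

theorem sumA : ∑ j : Fin 32, hdA.rodA j / hdA.den = 202 * (7 / 50 + 11440 / 3600) / 2000 / 30 / 4 := by
  rw [Fin.sum_univ_eq_sum_range (fun j => hdA.rodA j / hdA.den) 32]
  simp only [Heading.rodA, hdA]
  norm_num [Finset.sum_range_succ]

theorem sumB : ∑ j : Fin 32, hdB.rodA j / hdB.den = 202 * (7 / 50 + 11440 / 3600) / 2000 / 30 / 4 := by
  rw [Fin.sum_univ_eq_sum_range (fun j => hdB.rodA j / hdB.den) 32]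
  simp only [Heading.rodA, hdB]
  norm_num [Finset.sum_range_succ]

theorem sumX : ∑ j : Fin 32, hdX.rodA j / hdX.den
    = 202 * (16 + 32 / 124 - 10416 / 1922) / 2000 * (2 / 31) / (799 / 100) := by
  rw [Fin.sum_univ_eq_sum_range (fun j => hdX.rodA j / hdX.den) 32]
  simp only [Heading.rodA, hdX]
  norm_num [Finset.sum_range_succ]

theorem sumY : ∑ j : Fin 32, hdY.rodA j / hdY.den
    = 202 * (16 + 32 / 124 - 10416 / 1922) / 2000 * (2 / 31) / (799 / 100) := by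
  rw [Fin.sum_univ_eq_sum_range (fun j => hdY.rodA j / hdY.den) 32]
  simp only [Heading.rodA, hdY]
  norm_num [Finset.sum_range_succ]

theorem sum_bound : ∑ i, aa i / bb i < 249 / 500 := by
  rw [Fintype.sum_sum_type]
  simp only [Fintype.sum_prod_type, Fintype.sum_bool, aa, bb, Fin.sum_univ_four]
  have e0 : hd 0 = hdA := rfl
  have e1 : hd 1 = hdX := rfl
  have e2 : hd 2 = hdB := rfl
  have e3 : hd 3 = hdY := rfl
  rw [e0, e1, e2, e3, sumA, sumB, sumX, sumY]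
  norm_num

theorem main_idx :
    ∃ (u : Idx → E3) (B : (i : Idx) → Set ((ℝ ∙ u i)ᗮ)),
      (∀ i, ‖u i‖ = 1) ∧ (∀ i, MeasurableSet (B i)) ∧ (∀ i, volume (B i) < ⊤) ∧
      (∀ i, 0 < (volume ((ℝ ∙ u i)ᗮ.orthogonalProjectionOnto '' Kset)).toReal) ∧
      (∀ x ∈ Kset, ∃ i, ∃ b ∈ B i, ∃ t : ℝ, x = (b : E3) + t • u i) ∧
      ∑ i, (volume (B i)).toReal /
        (volume ((ℝ ∙ u i)ᗮ.orthogonalProjectionOnto '' Kset)).toReal < 249 / 500 := by
  obtain ⟨u, B, h1, h2, h3, h4, h5, h6⟩ := assemble FF EE SS S00 aa bb hS hS0 hsub ha0 hb0 ha hb hcov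
  exact ⟨u, B, h1, h2, h3, h4, h5, lt_of_le_of_lt h6 sum_bound⟩

theorem main_fin :
    ∃ (m : ℕ) (u : Fin m → E3) (B : (i : Fin m) → Set ((ℝ ∙ u i)ᗮ)),
      (∀ i, ‖u i‖ = 1) ∧ (∀ i, MeasurableSet (B i)) ∧ (∀ i, volume (B i) < ⊤) ∧
      (∀ i, 0 < (volume ((ℝ ∙ u i)ᗮ.orthogonalProjectionOnto '' Kset)).toReal) ∧
      (∀ x ∈ Kset, ∃ i, ∃ b ∈ B i, ∃ t : ℝ, x = (b : E3) + t • u i) ∧
      ∑ i, (volume (B i)).toReal /
        (volume ((ℝ ∙ u i)ᗮ.orthogonalProjectionOnto '' Kset)).toReal < 249 / 500 := by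
  obtain ⟨u, B, h1, h2, h3, h4, h5, h6⟩ := main_idx
  let e := Fintype.equivFin Idx
  refine ⟨Fintype.card Idx, fun i => u (e.symm i), fun i => B (e.symm i), fun i => h1 _,
    fun i => h2 _, fun i => h3 _, fun i => h4 _, ?_, ?_⟩
  · intro x hx
    obtain ⟨i, hi⟩ := h5 x hx
    obtain ⟨i', rfl⟩ := e.symm.surjective i
    exact ⟨i', hi⟩
  · have := Equiv.sum_comp e.symm (fun i => (volume (B i)).toReal /
        (volume ((ℝ ∙ u i)ᗮ.orthogonalProjectionOnto '' Kset)).toReal)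
    rw [this]
    exact h6

end Vale.Agent.P243
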